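import Vale.Agent.P088.H106.UWK
import Vale.Agent.P088.H924.Frame

/-!
# Conformal factors become potentials (complex form)
-/

open MeasureTheory Set
open scoped ContDiff Matrix

noncomputable section

namespace Vale.Agent.P088.HY.T9

open Vale.Agent.P088.LR Vale.Agent.P088.LR.H158 Vale.Agent.P088.LR.U

variable {n N : ℕ}

/-- `∂_i ρ / ρ`. -/
def lam (ρ : V n → ℝ) (i : Fin n) (x : V n) : ℝ := pd i ρ x / ρ x

/-- `∑_j s_ij ∂_j ρ`. -/
def mo (s : MF n) (ρ : V n → ℝ) (i : Fin n) (x : V n) : ℝ := ∑ j, s x i j * pd j ρ x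

/-- `div (s ∇ ρ) / ρ`. -/
def pot (s : MF n) (ρ : V n → ℝ) (x : V n) : ℝ := (∑ i, pd i (mo s ρ i) x) / ρ x

/-- `∑_j s_ij ∂_j ρ / ρ`. -/
def mr (s : MF n) (ρ : V n → ℝ) (i : Fin n) (x : V n) : ℝ := mo s ρ i x / ρ x

theorem pd_smulR {f g : V n → ℝ} {x : V n} (hf : DifferentiableAt ℝ f x)
    (hg : DifferentiableAt ℝ g x) (i : Fin n) :
    pd i (fun y => f y * g y) x = pd i f x * g x + f x * pd i g x := by
  unfold pd
  rw [fderiv_fun_mul hf hg]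
  simp only [_root_.add_apply, _root_.smul_apply, smul_eq_mul]
  ring

theorem pd_inv {ρ : V n → ℝ} {x : V n} (hf : DifferentiableAt ℝ ρ x) (h0 : ρ x ≠ 0) (i : Fin n) :
    pd i (fun y => (ρ y)⁻¹) x = -(pd i ρ x / ρ x ^ 2) := by
  unfold pd
  have h : HasFDerivAt (fun y => (ρ y)⁻¹) (-(ρ x ^ 2)⁻¹ • fderiv ℝ ρ x) x :=
    (hasDerivAt_inv h0).comp_hasFDerivAt x hf.hasFDerivAt
  rw [h.fderiv]
  simp only [_root_.smul_apply, smul_eq_mul]
  field_simp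

theorem pd_ofReal {f : V n → ℝ} {x : V n} (hf : DifferentiableAt ℝ f x) (i : Fin n) :
    pd i (fun y => ((f y : ℝ) : ℂ)) x = ((pd i f x : ℝ) : ℂ) :=
  pd_clm Complex.ofRealCLM hf i

theorem cd_ofReal_smul (A : Cn n N) {c : V n → ℝ} (hc : ContDiff ℝ ∞ c) {u : V n → Fin N → ℂ}
    (hu : ContDiff ℝ ∞ u) (i : Fin n) (x : V n) :
    cd A i (fun x => (c x : ℂ) • u x) x = ((pd i c x : ℝ) : ℂ) • u x + (c x : ℂ) • cd A i u x := by
  rw [cd_smul A (c := fun x => ((c x : ℝ) : ℂ)) (Complex.ofRealCLM.contDiff.comp hc) hu,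
    pd_ofReal (dfa hc x)]

theorem contDiff_smulv {c : V n → ℝ} (hc : ContDiff ℝ ∞ c) {u : V n → Fin N → ℂ}
    (hu : ContDiff ℝ ∞ u) : ContDiff ℝ ∞ fun x => (c x : ℂ) • u x :=
  (Complex.ofRealCLM.contDiff.comp hc).smul hu

section one

variable {s : MF n} (hs : SmM s) (hsy : ∀ x, (s x).IsSymm) {ρ : V n → ℝ} (hρ : ContDiff ℝ ∞ ρ)
  (hp : ∀ x, 0 < ρ x)

include hs hρ in
theorem sm_mo (i : Fin n) : ContDiff ℝ ∞ (mo s ρ i) :=
  ContDiff.sum fun j _ => (hs i j).mul (LR.H158.contDiff_pd hρ j)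

include hs hρ hp in
theorem sm_mr (i : Fin n) : ContDiff ℝ ∞ (mr s ρ i) :=
  (sm_mo hs hρ i).div hρ fun x => (hp x).ne'

include hs hρ hp in
theorem sm_pot : ContDiff ℝ ∞ (pot s ρ) :=
  (ContDiff.sum fun i _ => LR.H158.contDiff_pd (sm_mo hs hρ i) i).div hρ fun x => (hp x).ne'

include hρ hp in
theorem cd_inv (A : Cn n N) {u : V n → Fin N → ℂ} (hu : ContDiff ℝ ∞ u) (i : Fin n) (x : V n) :
    cd A i (fun y => (((ρ y)⁻¹ : ℝ) : ℂ) • u y) x =
      (((ρ x)⁻¹ : ℝ) : ℂ) • (cd A i u x - (lam ρ i x : ℂ) • u x) := by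
  rw [cd_ofReal_smul A (c := fun y => (ρ y)⁻¹) (hρ.inv fun x => (hp x).ne') hu, pd_inv (dfa hρ x) (hp x).ne', smul_sub,
    smul_smul, ← Complex.ofReal_mul, add_comm, sub_eq_add_neg, ← neg_smul, ← Complex.ofReal_neg]
  congr 3
  unfold lam
  field_simp

include hs hsy hρ hp in
theorem lav_conj {σ : V n → ℝ} (hσ : ∀ x, σ x = ρ x ^ 2) {A : Cn n N} (hA : SmU A)
    {u : V n → Fin N → ℂ} (hu : ContDiff ℝ ∞ u) (x : V n) :
    lav (fun y => σ y • s y) A (fun y => (((ρ y)⁻¹ : ℝ) : ℂ) • u y) x =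
      (ρ x : ℂ) • (lav s A u x - (pot s ρ x : ℂ) • u x) := by
  have hF : ∀ i, ContDiff ℝ ∞ fun y => ∑ j, (s y i j : ℂ) • cd A j u y := fun i =>
    H924.contDiff_Gf hs hA hu i
  have hfl : ∀ i, (fun y => ∑ j, (((σ y • s y) i j : ℝ) : ℂ) •
      cd A j (fun y => (((ρ y)⁻¹ : ℝ) : ℂ) • u y) y) =
      fun y => (ρ y : ℂ) • (∑ j, (s y i j : ℂ) • cd A j u y) - (mo s ρ i y : ℂ) • u y := by
    intro i
    funext y
    have h0 := (hp y).ne'
    simp only [cd_inv hρ hp A hu, Matrix.smul_apply, smul_eq_mul, hσ, mo]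
    rw [Finset.smul_sum, Complex.ofReal_sum, Finset.sum_smul, ← Finset.sum_sub_distrib]
    refine Finset.sum_congr rfl fun j _ => ?_
    rw [smul_smul, smul_smul, ← Complex.ofReal_mul, ← Complex.ofReal_mul, smul_sub, smul_smul,
      ← Complex.ofReal_mul]
    unfold lam
    congr 3
    · field_simp
    · field_simp
  unfold lav
  simp only [hfl]
  have hcd : ∀ i, cd A i (fun y => (ρ y : ℂ) • (∑ j, (s y i j : ℂ) • cd A j u y) -
      (mo s ρ i y : ℂ) • u y) x = ((pd i ρ x : ℝ) : ℂ) • (∑ j, (s x i j : ℂ) • cd A j u x) +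
      (ρ x : ℂ) • cd A i (fun y => ∑ j, (s y i j : ℂ) • cd A j u y) x -
      (((pd i (mo s ρ i) x : ℝ) : ℂ) • u x + (mo s ρ i x : ℂ) • cd A i u x) := by
    intro i
    rw [cd_sub A (contDiff_smulv hρ (hF i)) (contDiff_smulv (sm_mo hs hρ i) hu),
      cd_ofReal_smul A hρ (hF i), cd_ofReal_smul A (sm_mo hs hρ i) hu]
  simp only [hcd, Finset.sum_sub_distrib, Finset.sum_add_distrib]
  have h1 : ∑ i, ((pd i ρ x : ℝ) : ℂ) • (∑ j, (s x i j : ℂ) • cd A j u x) =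
      ∑ i, (mo s ρ i x : ℂ) • cd A i u x := by
    have h2 : ∀ i, (mo s ρ i x : ℂ) • cd A i u x =
        ∑ j, ((s x i j : ℂ) * ((pd j ρ x : ℝ) : ℂ)) • cd A i u x := by
      intro i
      rw [mo, Complex.ofReal_sum, Finset.sum_smul]
      simp only [Complex.ofReal_mul]
    simp only [h2, Finset.smul_sum, smul_smul]
    rw [Finset.sum_comm]
    refine Finset.sum_congr rfl fun i _ => Finset.sum_congr rfl fun j _ => ?_
    rw [(hsy x).apply i j, mul_comm]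
  rw [h1, ← Finset.smul_sum, ← Finset.sum_smul, smul_sub, smul_smul, ← Complex.ofReal_mul]
  have h3 : (ρ x : ℝ) * pot s ρ x = ∑ i, pd i (mo s ρ i) x := by
    unfold pot
    rw [mul_div_cancel₀ _ (hp x).ne']
  rw [h3, Complex.ofReal_sum]
  abel

include hs hρ hp in
/-- The divergence of `mr f`. -/
theorem div_mr {f : V n → ℂ} (hf : ContDiff ℝ ∞ f) (x : V n) :
    ∑ i, pd i (fun y => (mr s ρ i y : ℂ) * f y) x =
      (pot s ρ x : ℂ) * f x - ∑ i, ((mr s ρ i x : ℂ) * (lam ρ i x : ℂ)) * f x +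
        ∑ i, (mr s ρ i x : ℂ) * pd i f x := by
  have h1 : ∀ i, pd i (fun y => (mr s ρ i y : ℂ) * f y) x =
      ((pd i (mr s ρ i) x : ℝ) : ℂ) * f x + (mr s ρ i x : ℂ) * pd i f x := by
    intro i
    have hc : ContDiff ℝ ∞ fun y => (mr s ρ i y : ℂ) :=
      Complex.ofRealCLM.contDiff.comp (sm_mr hs hρ hp i)
    rw [pd_mul (dfa hc x) (dfa hf x), pd_ofReal (dfa (sm_mr hs hρ hp i) x)]
  have h2 : ∀ i, pd i (mr s ρ i) x = pd i (mo s ρ i) x / ρ x - mr s ρ i x * lam ρ i x := by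
    intro i
    have h0 := (hp x).ne'
    have h3 : mr s ρ i = fun y => mo s ρ i y * (ρ y)⁻¹ := by
      funext y
      rw [mr, div_eq_mul_inv]
    have hi : ContDiff ℝ ∞ fun y => (ρ y)⁻¹ := hρ.inv fun x => (hp x).ne'
    rw [h3, pd_smulR (dfa (sm_mo hs hρ i) x) (dfa hi x), pd_inv (dfa hρ x) h0, lam]
    field_simp
    ring
  simp only [h1, h2, Finset.sum_add_distrib]
  congr 1
  rw [← Finset.sum_mul, ← Finset.sum_mul, ← sub_mul, pot]
  congr 1
  push_cast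
  rw [Finset.sum_sub_distrib, Finset.sum_div]

include hs hsy hρ hp in
/-- The integrand. -/
theorem int_conj {σ : V n → ℝ} (hσ : ∀ x, σ x = ρ x ^ 2) {A : Cn n N} (hA : SmU A)
    {u v : V n → Fin N → ℂ} (hu : ContDiff ℝ ∞ u) (hv : ContDiff ℝ ∞ v) (x : V n) :
    ∑ i, ∑ j, (((σ x • s x) i j : ℝ) : ℂ) *
      (cd A i (fun y => (((ρ y)⁻¹ : ℝ) : ℂ) • u y) x ⬝ᵥ
        star (cd A j (fun y => (((ρ y)⁻¹ : ℝ) : ℂ) • v y) x)) =
      (∑ i, ∑ j, (s x i j : ℂ) * (cd A i u x ⬝ᵥ star (cd A j v x))) +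
        (pot s ρ x : ℂ) * (u x ⬝ᵥ star (v x)) -
        ∑ i, pd i (fun y => (mr s ρ i y : ℂ) * (u y ⬝ᵥ star (v y))) x := by
  have hf : ContDiff ℝ ∞ fun y => u y ⬝ᵥ star (v y) := by
    unfold dotProduct
    exact ContDiff.sum fun b _ => ((contDiff_pi.1 hu) b).mul
      (contDiff_star ((contDiff_pi.1 hv) b))
  rw [div_mr hs hρ hp hf x]
  simp only [H924.pd_dot_cd hA hu hv]
  have h0 := (hp x).ne'
  have h0' : (ρ x : ℂ) ≠ 0 := Complex.ofReal_ne_zero.2 h0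
  set L : Fin n → ℂ := fun i => (lam ρ i x : ℂ) with hL
  set a : Fin n → Fin n → ℂ := fun i j => cd A i u x ⬝ᵥ star (cd A j v x) with ha
  set b : Fin n → ℂ := fun i => cd A i u x ⬝ᵥ star (v x) with hb
  set c : Fin n → ℂ := fun j => u x ⬝ᵥ star (cd A j v x) with hc
  set f : ℂ := u x ⬝ᵥ star (v x) with hf'
  have h1 : ∀ i j, (((σ x • s x) i j : ℝ) : ℂ) *
      (cd A i (fun y => (((ρ y)⁻¹ : ℝ) : ℂ) • u y) x ⬝ᵥ
        star (cd A j (fun y => (((ρ y)⁻¹ : ℝ) : ℂ) • v y) x)) =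
      (s x i j : ℂ) * (a i j - L j * b i - L i * c j + L i * L j * f) := by
    intro i j
    rw [cd_inv hρ hp A hu, cd_inv hρ hp A hv, star_smul, smul_dotProduct, dotProduct_smul,
      star_sub, star_smul, sub_dotProduct, dotProduct_sub, dotProduct_sub, smul_dotProduct,
      dotProduct_smul, dotProduct_smul, smul_dotProduct, Matrix.smul_apply, hσ]
    simp only [smul_eq_mul, Complex.star_def, Complex.conj_ofReal]
    show _ = (s x i j : ℂ) * (a i j - (lam ρ j x : ℂ) * b i - (lam ρ i x : ℂ) * c j +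
      (lam ρ i x : ℂ) * (lam ρ j x : ℂ) * f)
    push_cast
    field_simp
    ring
  have h2 : ∀ i, (mr s ρ i x : ℂ) = ∑ j, (s x i j : ℂ) * L j := by
    intro i
    rw [mr, mo, Finset.sum_div, Complex.ofReal_sum]
    refine Finset.sum_congr rfl fun j _ => ?_
    rw [hL]
    show _ = (s x i j : ℂ) * ((pd j ρ x / ρ x : ℝ) : ℂ)
    push_cast
    ring
  simp only [h1, h2]
  show _ = (∑ i, ∑ j, (s x i j : ℂ) * a i j) + (pot s ρ x : ℂ) * f -
    ((pot s ρ x : ℂ) * f - ∑ i, ((∑ j, (s x i j : ℂ) * L j) * L i) * f +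
      ∑ i, (∑ j, (s x i j : ℂ) * L j) * (b i + c i))
  have h3 : ∑ i, ∑ j, (s x i j : ℂ) * (L i * c j) = ∑ i, (∑ j, (s x i j : ℂ) * L j) * c i := by
    rw [Finset.sum_comm]
    refine Finset.sum_congr rfl fun i _ => ?_
    rw [Finset.sum_mul]
    refine Finset.sum_congr rfl fun j _ => ?_
    rw [(hsy x).apply i j]
    ring
  have h4 : ∑ i, ∑ j, (s x i j : ℂ) * (a i j - L j * b i - L i * c j + L i * L j * f) =
      (∑ i, ∑ j, (s x i j : ℂ) * a i j) - (∑ i, (∑ j, (s x i j : ℂ) * L j) * b i) -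
        (∑ i, ∑ j, (s x i j : ℂ) * (L i * c j)) +
        ∑ i, ((∑ j, (s x i j : ℂ) * L j) * L i) * f := by
    simp only [Finset.sum_mul, ← Finset.sum_sub_distrib, ← Finset.sum_add_distrib]
    exact Finset.sum_congr rfl fun i _ => Finset.sum_congr rfl fun j _ => by ring
  rw [h4, h3]
  simp only [mul_add, Finset.sum_add_distrib]
  ring

end one

end Vale.Agent.P088.HY.T9
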