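import Vale.Agent.P088.R2.H948.T.Real

/-!
# Equal potentials give equal conformal factors
-/

open MeasureTheory Set
open scoped ContDiff Matrix

noncomputable section

namespace Vale.Agent.P088.HY.T9

open Vale.Agent.P088.LR Vale.Agent.P088.LR.H158

variable {n N : ℕ}

/-- Matrices near `1` are positive. -/
theorem pos_near {S : Matrix (Fin n) (Fin n) ℝ} {ε : ℝ} (hε : n * ε ≤ 1 / 2)
    (h : ∀ i j, |S i j - (1 : Matrix (Fin n) (Fin n) ℝ) i j| ≤ ε) (v : Fin n → ℝ) :
    ∑ i, v i ^ 2 ≤ 2 * ∑ i, ∑ j, S i j * (v i * v j) := by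
  have h1 : ∑ i, ∑ j, S i j * (v i * v j) = ∑ i, v i ^ 2 +
      ∑ i, ∑ j, (S i j - (1 : Matrix (Fin n) (Fin n) ℝ) i j) * (v i * v j) := by
    have h2 : ∀ i, v i ^ 2 = ∑ j, (1 : Matrix (Fin n) (Fin n) ℝ) i j * (v i * v j) := by
      intro i
      simp only [Matrix.one_apply, ite_mul, one_mul, zero_mul, Finset.sum_ite_eq,
        Finset.mem_univ, if_true]
      ring
    simp only [h2, ← Finset.sum_add_distrib]
    exact Finset.sum_congr rfl fun i _ => Finset.sum_congr rfl fun j _ => by ring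
  have h2 : ∀ i j, -(ε * ((v i ^ 2 + v j ^ 2) / 2)) ≤
      (S i j - (1 : Matrix (Fin n) (Fin n) ℝ) i j) * (v i * v j) := by
    intro i j
    have h3 : |(S i j - (1 : Matrix (Fin n) (Fin n) ℝ) i j) * (v i * v j)| ≤
        ε * ((v i ^ 2 + v j ^ 2) / 2) := by
      rw [abs_mul]
      refine mul_le_mul (h i j) ?_ (abs_nonneg _) ((abs_nonneg _).trans (h i j))
      rw [abs_le]
      constructor <;> nlinarith [sq_nonneg (v i + v j), sq_nonneg (v i - v j)]
    exact (abs_le.1 h3).1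
  have h3 : -(ε * n * ∑ i, v i ^ 2) ≤
      ∑ i, ∑ j, (S i j - (1 : Matrix (Fin n) (Fin n) ℝ) i j) * (v i * v j) := by
    refine le_trans (le_of_eq ?_) (Finset.sum_le_sum fun i _ => Finset.sum_le_sum fun j _ => h2 i j)
    simp only [Finset.sum_neg_distrib, ← Finset.mul_sum, add_div, Finset.sum_add_distrib,
      Finset.sum_const, Finset.card_univ, Fintype.card_fin, nsmul_eq_mul, ← Finset.sum_div]
    ring
  have h4 : 0 ≤ ∑ i, v i ^ 2 := Finset.sum_nonneg fun i _ => sq_nonneg _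
  rw [h1]
  nlinarith

theorem fderiv_zero_of_pd {f : V n → ℝ} {x : V n} (h : ∀ i, pd i f x = 0) : fderiv ℝ f x = 0 := by
  refine ContinuousLinearMap.ext fun v => ?_
  rw [vec_eq v, map_sum]
  refine Finset.sum_eq_zero fun i _ => ?_
  rw [map_smul]
  show v i • pd i f x = 0
  rw [h, smul_zero]

section two

variable {Ω : Set (V n)} (hb : Bornology.IsBounded Ω)
  (hi : interior (closure Ω) = Ω) {s : MF n} (hs : SmM s) (hsy : ∀ x, (s x).IsSymm)
  {ρ₁ ρ₂ : V n → ℝ} (hρ₁ : ContDiff ℝ ∞ ρ₁) (hρ₂ : ContDiff ℝ ∞ ρ₂) (hp₁ : ∀ x, 0 < ρ₁ x)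
  (hp₂ : ∀ x, 0 < ρ₂ x) (hρ : ∀ x ∉ Ω, ρ₂ x = ρ₁ x)

include hb hs hsy hρ₁ hρ₂ hp₁ hp₂ hρ in
theorem rho_eq (hpos : ∀ x (v : Fin n → ℝ), ∑ i, v i ^ 2 ≤ 2 * ∑ i, ∑ j, s x i j * (v i * v j))
    (hpot : ∀ x, pot s ρ₂ x = pot s ρ₁ x) {x₀ : V n} (hx₀ : x₀ ∉ Ω) : ∀ x, ρ₂ x = ρ₁ x := by
  set h : V n → ℝ := fun x => ρ₂ x * (ρ₁ x)⁻¹ - 1 with hh
  have hinv : ContDiff ℝ ∞ fun x => (ρ₁ x)⁻¹ := hρ₁.inv fun x => (hp₁ x).ne'
  have hsm : ContDiff ℝ ∞ h := (hρ₂.mul hinv).sub contDiff_const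
  have h0 : ∀ x ∉ Ω, h x = 0 := by
    intro x hx
    rw [hh]
    show ρ₂ x * (ρ₁ x)⁻¹ - 1 = 0
    rw [hρ x hx, mul_inv_cancel₀ (hp₁ x).ne', sub_self]
  set F : Fin n → V n → ℝ := fun i x => ρ₁ x * mo s ρ₂ i x - ρ₂ x * mo s ρ₁ i x with hF
  have hFs : ∀ i, ContDiff ℝ ∞ (F i) := fun i =>
    (hρ₁.mul (sm_mo hs hρ₂ i)).sub (hρ₂.mul (sm_mo hs hρ₁ i))
  have hpd : ∀ x k, pd k h x = (pd k ρ₂ x * ρ₁ x - ρ₂ x * pd k ρ₁ x) / ρ₁ x ^ 2 := by
    intro x k
    have h1 : pd k h x = pd k (fun x => ρ₂ x * (ρ₁ x)⁻¹) x := by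
      unfold pd
      rw [hh]
      rw [fderiv_sub_const]
    rw [h1, pd_smulR (dfa hρ₂ x) (dfa hinv x), pd_inv (dfa hρ₁ x) (hp₁ x).ne']
    have := (hp₁ x).ne'
    field_simp
    ring
  have hFh : ∀ i x, F i x = ρ₁ x ^ 2 * ∑ k, s x i k * pd k h x := by
    intro i x
    simp only [hpd, hF, mo]
    rw [Finset.mul_sum, Finset.mul_sum, Finset.mul_sum, ← Finset.sum_sub_distrib]
    refine Finset.sum_congr rfl fun k _ => ?_
    have := (hp₁ x).ne'
    field_simp
  have hdiv : ∀ x, ∑ i, pd i (F i) x = 0 := by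
    intro x
    have h1 : ∀ i, pd i (F i) x = (pd i ρ₁ x * mo s ρ₂ i x + ρ₁ x * pd i (mo s ρ₂ i) x) -
        (pd i ρ₂ x * mo s ρ₁ i x + ρ₂ x * pd i (mo s ρ₁ i) x) := by
      intro i
      rw [hF]
      have h2 := pd_sub (f := fun x => ρ₁ x * mo s ρ₂ i x) (g := fun x => ρ₂ x * mo s ρ₁ i x)
        (dfa (hρ₁.mul (sm_mo hs hρ₂ i)) x) (dfa (hρ₂.mul (sm_mo hs hρ₁ i)) x) i
      refine h2.trans ?_
      rw [pd_smulR (dfa hρ₁ x) (dfa (sm_mo hs hρ₂ i) x),
        pd_smulR (dfa hρ₂ x) (dfa (sm_mo hs hρ₁ i) x)]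
    simp only [h1, Finset.sum_sub_distrib, Finset.sum_add_distrib, ← Finset.mul_sum]
    have h3 : ∑ i, pd i ρ₁ x * mo s ρ₂ i x = ∑ i, pd i ρ₂ x * mo s ρ₁ i x := by
      simp only [mo, Finset.mul_sum]
      rw [Finset.sum_comm]
      refine Finset.sum_congr rfl fun i _ => Finset.sum_congr rfl fun j _ => ?_
      rw [(hsy x).apply i j]
      ring
    have h4 := hpot x
    unfold pot at h4
    rw [div_eq_div_iff (hp₂ x).ne' (hp₁ x).ne'] at h4
    rw [h3]
    linarith
  have hG : ∀ i, ContDiff ℝ ∞ fun x => h x * F i x := fun i => hsm.mul (hFs i)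
  have hGd : ∀ x, ∑ i, pd i (fun x => h x * F i x) x =
      ρ₁ x ^ 2 * ∑ i, ∑ j, s x i j * (pd i h x * pd j h x) := by
    intro x
    have h1 : ∀ i, pd i (fun x => h x * F i x) x = pd i h x * F i x + h x * pd i (F i) x :=
      fun i => pd_smulR (dfa hsm x) (dfa (hFs i) x) i
    rw [Finset.sum_congr rfl fun i _ => h1 i, Finset.sum_add_distrib, ← Finset.mul_sum, hdiv,
      mul_zero, add_zero, Finset.mul_sum]
    refine Finset.sum_congr rfl fun i _ => ?_
    rw [hFh, Finset.mul_sum, Finset.mul_sum, Finset.mul_sum]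
    exact Finset.sum_congr rfl fun j _ => by ring
  have hint : ∀ i, Integrable (pd i fun x => h x * F i x) ∧ ∫ x, pd i (fun x => h x * F i x) x = 0 := by
    intro i
    have hc : ContDiff ℝ ∞ fun x => ((h x * F i x : ℝ) : ℂ) := Complex.ofRealCLM.contDiff.comp (hG i)
    have h1 := integral_pd_zero hb hc (fun x hx => by rw [h0 x hx, zero_mul, Complex.ofReal_zero]) i
    have h2 : pd i (fun x => ((h x * F i x : ℝ) : ℂ)) =
        fun x => ((pd i (fun x => h x * F i x) x : ℝ) : ℂ) := by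
      funext x
      exact pd_ofReal (dfa (hG i) x) i
    rw [h2] at h1
    refine ⟨?_, ?_⟩
    · have h3 := h1.1.re
      simpa using h3
    · have h3 : ∫ x, ((pd i (fun x => h x * F i x) x : ℝ) : ℂ) = 0 := h1.2
      rw [integral_complex_ofReal] at h3
      exact_mod_cast h3
  have hI : ∫ x, ∑ i, pd i (fun x => h x * F i x) x = 0 := by
    rw [integral_finsetSum _ fun i _ => (hint i).1]
    exact Finset.sum_eq_zero fun i _ => (hint i).2
  have hcont : Continuous fun x => ∑ i, pd i (fun x => h x * F i x) x :=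
    continuous_finsetSum _ fun i _ => (LR.H158.contDiff_pd (hG i) i).continuous
  have hnn : 0 ≤ fun x => ∑ i, pd i (fun x => h x * F i x) x := by
    intro x
    show 0 ≤ ∑ i, pd i (fun x => h x * F i x) x
    rw [hGd]
    have h1 := hpos x fun i => pd i h x
    have h2 : 0 ≤ ∑ i, (pd i h x) ^ 2 := Finset.sum_nonneg fun i _ => sq_nonneg _
    have h3 : 0 ≤ ∑ i, ∑ j, s x i j * (pd i h x * pd j h x) := by linarith
    positivity
  have hcs : HasCompactSupport fun x => ∑ i, pd i (fun x => h x * F i x) x := by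
    refine HasCompactSupport.intro hb.isCompact_closure fun x hx => ?_
    refine Finset.sum_eq_zero fun i _ => ?_
    have h1 : (fun x => h x * F i x) =ᶠ[nhds x] fun _ => 0 := by
      filter_upwards [isClosed_closure.isOpen_compl.mem_nhds hx] with y hy
      rw [h0 y fun h => hy (subset_closure h), zero_mul]
    unfold pd
    rw [h1.fderiv_eq]
    simp
  have hgrad : ∀ x, fderiv ℝ h x = 0 := by
    intro x
    have h1 : ∑ i, pd i (fun x => h x * F i x) x = 0 := by
      by_contra hne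
      have h2 := hcont.integral_pos_of_hasCompactSupport_nonneg_nonzero
        (μ := (volume : Measure (V n))) hcs hnn hne
      rw [hI] at h2
      exact lt_irrefl _ h2
    rw [hGd] at h1
    have h2 := hpos x fun i => pd i h x
    have h3 : ∑ i, ∑ j, s x i j * (pd i h x * pd j h x) = 0 := by
      rcases mul_eq_zero.1 h1 with h4 | h4
      · exact absurd h4 (pow_ne_zero _ (hp₁ x).ne')
      · exact h4
    rw [h3, mul_zero] at h2
    have h4 : ∑ i, (pd i h x) ^ 2 = 0 :=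
      le_antisymm h2 (Finset.sum_nonneg fun i _ => sq_nonneg _)
    refine fderiv_zero_of_pd fun i => ?_
    have h5 := (Finset.sum_eq_zero_iff_of_nonneg fun i _ => sq_nonneg (pd i h x)).1 h4 i
      (Finset.mem_univ i)
    exact pow_eq_zero_iff (two_ne_zero) |>.1 h5
  intro x
  have h1 := is_const_of_fderiv_eq_zero (hsm.differentiable (by simp)) hgrad x x₀
  rw [h0 x₀ hx₀] at h1
  have h2 : ρ₂ x * (ρ₁ x)⁻¹ - 1 = 0 := h1
  have := (hp₁ x).ne'
  field_simp at h2
  linarith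

end two

/-- A gauge which is `1` far away is `1` off `Ω`. -/
theorem gau_one {m : ℕ} {Ω : Set (V n)} (hi : interior (closure Ω) = Ω)
    (hc : IsPreconnected (closure Ω)ᶜ) {A₁ A₂ : Cn' n m} {G : Mx n m}
    (hsk : ∀ i x, (A₁ i x)ᵀ = -A₁ i x) (hA : ∀ i, ∀ x ∉ Ω, A₂ i x = A₁ i x)
    (hG : Gau A₁ A₂ G) {x₀ : V n} (hx₀ : x₀ ∉ closure Ω) (h₀ : G x₀ = 1) : ∀ x ∉ Ω, G x = 1 := by
  set E : V n → Matrix (Fin m) (Fin m) ℝ := fun x => G x - 1 with hE
  have hEs : ∀ p q, ContDiff ℝ ∞ fun x => E x p q := fun p q => (hG.sm p q).sub contDiff_const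
  set f : V n → ℝ := fun x => ∑ p, ∑ q, E x p q ^ 2 with hf
  have hfs : ContDiff ℝ ∞ f := ContDiff.sum fun p _ => ContDiff.sum fun q _ => (hEs p q).pow 2
  have hpdE : ∀ i x p q, pd i (fun y => E y p q) x = pd i (fun y => G y p q) x := by
    intro i x p q
    unfold pd
    rw [hE]
    show (fderiv ℝ (fun y => G y p q - (1 : Matrix (Fin m) (Fin m) ℝ) p q) x) _ = _
    rw [fderiv_sub_const]
  have hpd : ∀ x ∉ Ω, ∀ i, pd i f x = 0 := by
    intro x hx i
    have h1 : pd i f x = ∑ p, ∑ q, 2 * (E x p q * pd i (fun y => E y p q) x) := by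
      rw [hf]
      have h2 : ∀ p, DifferentiableAt ℝ (fun x => ∑ q, E x p q ^ 2) x := fun p =>
        dfa (ContDiff.sum fun q _ => (hEs p q).pow 2) x
      have h3 : pd i (fun x => ∑ p, ∑ q, E x p q ^ 2) x =
          ∑ p, pd i (fun x => ∑ q, E x p q ^ 2) x :=
        pd_sum (f := fun p x => ∑ q, E x p q ^ 2) (u := Finset.univ) (fun p _ => h2 p) i
      rw [h3]
      refine Finset.sum_congr rfl fun p _ => ?_
      have h4 : pd i (fun x => ∑ q, E x p q ^ 2) x = ∑ q, pd i (fun x => E x p q ^ 2) x :=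
        pd_sum (f := fun q x => E x p q ^ 2) (u := Finset.univ)
          (fun q _ => dfa ((hEs p q).pow 2) x) i
      rw [h4]
      refine Finset.sum_congr rfl fun q _ => ?_
      have h5 : (fun x => E x p q ^ 2) = fun x => E x p q * E x p q := by
        funext x
        ring
      rw [h5, pd_smulR (dfa (hEs p q) x) (dfa (hEs p q) x)]
      ring
    have h6 : (Matrix.of fun p q => pd i (fun y => G y p q) x) = E x * A₁ i x - A₁ i x * E x := by
      have h7 := hG.p i x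
      unfold Dh at h7
      rw [hA i x hx] at h7
      have h8 : (Matrix.of fun p q => pd i (fun y => G y p q) x) =
          G x * A₁ i x - A₁ i x * G x := by
        rw [eq_sub_iff_add_eq]
        exact sub_eq_zero.1 h7
      rw [h8, hE]
      noncomm_ring
    have h7 : pd i f x = 2 * ((E x)ᵀ * (Matrix.of fun p q => pd i (fun y => G y p q) x)).trace := by
      rw [h1]
      simp only [hpdE, Matrix.trace, Matrix.diag_apply, Matrix.mul_apply, Matrix.transpose_apply,
        Matrix.of_apply]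
      rw [Finset.sum_comm, Finset.mul_sum]
      refine Finset.sum_congr rfl fun p _ => ?_
      rw [Finset.mul_sum]
    have h8 : ((E x)ᵀ * (E x * A₁ i x)).trace = 0 := by
      have h9 : ((E x)ᵀ * (E x * A₁ i x)).trace = -((E x)ᵀ * (E x * A₁ i x)).trace := by
        conv_lhs => rw [← Matrix.trace_transpose]
        rw [Matrix.transpose_mul, Matrix.transpose_mul, Matrix.transpose_transpose, hsk,
          Matrix.neg_mul, Matrix.neg_mul, Matrix.trace_neg, Matrix.mul_assoc, Matrix.trace_mul_comm,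
          Matrix.mul_assoc]
      linarith
    have h10 : ((E x)ᵀ * (A₁ i x * E x)).trace = 0 := by
      have h9 : ((E x)ᵀ * (A₁ i x * E x)).trace = -((E x)ᵀ * (A₁ i x * E x)).trace := by
        conv_lhs => rw [← Matrix.trace_transpose]
        rw [Matrix.transpose_mul, Matrix.transpose_mul, Matrix.transpose_transpose, hsk,
          Matrix.mul_neg, Matrix.neg_mul, Matrix.trace_neg, Matrix.mul_assoc]
      linarith
    rw [h7, h6, Matrix.mul_sub, Matrix.trace_sub, h8, h10, sub_zero, mul_zero]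
  have hO : IsOpen (closure Ω)ᶜ := isClosed_closure.isOpen_compl
  have hsub : ∀ x ∈ (closure Ω)ᶜ, x ∉ Ω := fun x hx h => hx (subset_closure h)
  have hzero : ∀ x ∈ (closure Ω)ᶜ, G x = 1 := by
    intro x hx
    have h1 : f x = f x₀ := hO.is_const_of_fderiv_eq_zero hc
      (hfs.differentiable (by simp)).differentiableOn
      (fun y hy => fderiv_zero_of_pd (hpd y (hsub y hy))) hx hx₀
    have h2 : f x₀ = 0 := by
      rw [hf]
      show ∑ p, ∑ q, (G x₀ - 1) p q ^ 2 = 0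
      rw [h₀, sub_self]
      simp
    rw [h2] at h1
    ext p q
    have h3 := (Finset.sum_eq_zero_iff_of_nonneg fun p _ => Finset.sum_nonneg fun q _ =>
      sq_nonneg (E x p q)).1 h1 p (Finset.mem_univ p)
    have h4 := (Finset.sum_eq_zero_iff_of_nonneg fun q _ => sq_nonneg (E x p q)).1 h3 q
      (Finset.mem_univ q)
    have h5 : E x p q = 0 := pow_eq_zero_iff (two_ne_zero) |>.1 h4
    exact sub_eq_zero.1 h5
  intro x hx
  have h2 : x ∈ closure ((closure Ω)ᶜ) := by
    rw [closure_compl, hi]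
    exact hx
  have hcl : IsClosed {x : V n | G x = 1} := by
    have h3 : Continuous G := continuous_matrix fun p q => (hG.sm p q).continuous
    exact isClosed_eq h3 continuous_const
  exact hcl.closure_subset_iff.2 hzero h2

end Vale.Agent.P088.HY.T9
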