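import Vale.Agent.P088.H106.URed
import Vale.Agent.P088.R2.H948.T.Conj

/-!
# The identity for two connections and two potentials (complex form)
-/

open MeasureTheory Set
open scoped ContDiff Matrix

noncomputable section

namespace Vale.Agent.P088.HY.T9

open Vale.Agent.P088.LR Vale.Agent.P088.LR.H158 Vale.Agent.P088.LR.U Vale.Agent.P088.H106

variable {n N : ℕ}

/-- The integrand. -/
def fo (s : MF n) (A : Cn n N) (u v : V n → Fin N → ℂ) (x : V n) : ℂ :=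
  ∑ i, ∑ j, (s x i j : ℂ) * (cd A i u x ⬝ᵥ star (cd A j v x))

theorem cont_dot {u v : V n → Fin N → ℂ} (hu : ContDiff ℝ ∞ u) (hv : ContDiff ℝ ∞ v) :
    ContDiff ℝ ∞ fun y => u y ⬝ᵥ star (v y) := by
  unfold dotProduct
  exact ContDiff.sum fun b _ => ((contDiff_pi.1 hu) b).mul (contDiff_star ((contDiff_pi.1 hv) b))

theorem pd_eq_off {Ω : Set (V n)} (hi : interior (closure Ω) = Ω) {F : Type*}
    [NormedAddCommGroup F] [NormedSpace ℝ F] {f g : V n → F} (hf : ContDiff ℝ ∞ f)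
    (hg : ContDiff ℝ ∞ g) (h : ∀ x ∉ Ω, g x = f x) (i : Fin n) : ∀ x ∉ Ω, pd i g x = pd i f x := by
  intro x hx
  have h1 := fderiv_zero_off hi (hg.sub hf) (fun y hy => by rw [h y hy, sub_self]) hx
  have h2 : fderiv ℝ (fun y => g y - f y) x = 0 := h1
  rw [fderiv_fun_sub (dfa hg x) (dfa hf x)] at h2
  unfold pd
  rw [sub_eq_zero.1 h2]

section two

variable {Ω : Set (V n)} (hΩ : IsOpen Ω) (hb : Bornology.IsBounded Ω)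
  (hi : interior (closure Ω) = Ω) {s : MF n} (hs : SmM s) (hsy : ∀ x, (s x).IsSymm)
  {ρ₁ ρ₂ : V n → ℝ} (hρ₁ : ContDiff ℝ ∞ ρ₁) (hρ₂ : ContDiff ℝ ∞ ρ₂) (hp₁ : ∀ x, 0 < ρ₁ x)
  (hp₂ : ∀ x, 0 < ρ₂ x) (hρ : ∀ x ∉ Ω, ρ₂ x = ρ₁ x)

include hi hρ₁ hρ₂ hρ in
theorem mo_off (i : Fin n) : ∀ x ∉ Ω, mo s ρ₂ i x = mo s ρ₁ i x := by
  intro x hx
  unfold mo
  exact Finset.sum_congr rfl fun j _ => by rw [pd_eq_off hi hρ₁ hρ₂ hρ j x hx]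

include hi hρ₁ hρ₂ hρ in
theorem mr_off (i : Fin n) : ∀ x ∉ Ω, mr s ρ₂ i x = mr s ρ₁ i x := by
  intro x hx
  unfold mr
  rw [mo_off hi hρ₁ hρ₂ hρ i x hx, hρ x hx]

include hi hs hρ₁ hρ₂ hρ in
theorem pot_off : ∀ x ∉ Ω, pot s ρ₂ x = pot s ρ₁ x := by
  intro x hx
  unfold pot
  rw [hρ x hx]
  congr 1
  exact Finset.sum_congr rfl fun i _ =>
    pd_eq_off hi (sm_mo hs hρ₁ i) (sm_mo hs hρ₂ i) (mo_off hi hρ₁ hρ₂ hρ i) i x hx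

include hb hi hs hρ₁ hρ₂ hp₁ hp₂ hρ in
theorem int_div {f : V n → ℂ} (hf : ContDiff ℝ ∞ f) :
    ∫ x in Ω, ∑ i, pd i (fun y => (mr s ρ₁ i y : ℂ) * f y) x =
      ∫ x in Ω, ∑ i, pd i (fun y => (mr s ρ₂ i y : ℂ) * f y) x := by
  have hsm : ∀ {ρ : V n → ℝ}, ContDiff ℝ ∞ ρ → (∀ x, 0 < ρ x) → ∀ i,
      ContDiff ℝ ∞ fun y => (mr s ρ i y : ℂ) * f y := fun hρ hp i =>
    (Complex.ofRealCLM.contDiff.comp (sm_mr hs hρ hp i)).mul hf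
  have h1 : ∀ i, ∫ x in Ω, (pd i (fun y => (mr s ρ₁ i y : ℂ) * f y) x -
      pd i (fun y => (mr s ρ₂ i y : ℂ) * f y) x) = 0 := by
    intro i
    have hG : ContDiff ℝ ∞ fun y => (mr s ρ₁ i y : ℂ) * f y - (mr s ρ₂ i y : ℂ) * f y :=
      (hsm hρ₁ hp₁ i).sub (hsm hρ₂ hp₂ i)
    have hG0 : ∀ x ∉ Ω, (mr s ρ₁ i x : ℂ) * f x - (mr s ρ₂ i x : ℂ) * f x = 0 := by
      intro x hx
      rw [mr_off hi hρ₁ hρ₂ hρ i x hx, sub_self]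
    have h2 := (integral_pd_zero hb hG hG0 i).2
    have h3 : ∀ x, pd i (fun y => (mr s ρ₁ i y : ℂ) * f y - (mr s ρ₂ i y : ℂ) * f y) x =
        pd i (fun y => (mr s ρ₁ i y : ℂ) * f y) x - pd i (fun y => (mr s ρ₂ i y : ℂ) * f y) x :=
      fun x => pd_sub (dfa (hsm hρ₁ hp₁ i) x) (dfa (hsm hρ₂ hp₂ i) x) i
    simp only [h3] at h2
    rw [← h2]
    refine setIntegral_eq_integral_of_forall_compl_eq_zero fun x hx => ?_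
    rw [← h3]
    unfold pd
    rw [fderiv_zero_off hi hG hG0 hx]
    rfl
  have hci : ∀ {ρ : V n → ℝ}, ContDiff ℝ ∞ ρ → (∀ x, 0 < ρ x) → ∀ i,
      IntegrableOn (pd i (fun y => (mr s ρ i y : ℂ) * f y)) Ω := fun hρ hp i =>
    intOn hb (LR.H158.contDiff_pd (hsm hρ hp i) i).continuous
  rw [integral_finsetSum _ fun i _ => hci hρ₁ hp₁ i, integral_finsetSum _ fun i _ => hci hρ₂ hp₂ i]
  refine Finset.sum_congr rfl fun i _ => ?_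
  have h4 := h1 i
  rw [integral_sub (hci hρ₁ hp₁ i) (hci hρ₂ hp₂ i)] at h4
  exact sub_eq_zero.1 h4

include hΩ hb hi hs hsy hρ₁ hρ₂ hp₁ hp₂ hρ in
/-- The identity with potentials. -/
theorem idC {σ₁ σ₂ : V n → ℝ} (hσ₁ : ∀ x, σ₁ x = ρ₁ x ^ 2) (hσ₂ : ∀ x, σ₂ x = ρ₂ x ^ 2)
    {A₁ A₂ : Cn n N} (hA₁ : SmU A₁) (hA₂ : SmU A₂)
    (hOr : OrU Ω (fun x => σ₁ x • s x) A₁ (fun x => σ₂ x • s x) A₂)
    {u v : V n → Fin N → ℂ} (hu : ContDiff ℝ ∞ u) (hv : ContDiff ℝ ∞ v)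
    (hLu : ∀ x ∈ Ω, lav s A₁ u x = (pot s ρ₁ x : ℂ) • u x)
    (hLv : ∀ x ∈ Ω, lav s A₂ v x = (pot s ρ₂ x : ℂ) • v x) :
    ∫ x in Ω, (fo s A₁ u v x - fo s A₂ u v x +
      ((pot s ρ₁ x : ℂ) - (pot s ρ₂ x : ℂ)) * (u x ⬝ᵥ star (v x))) = 0 := by
  have hr₁ : ContDiff ℝ ∞ fun y => (ρ₁ y)⁻¹ := hρ₁.inv fun x => (hp₁ x).ne'
  have hr₂ : ContDiff ℝ ∞ fun y => (ρ₂ y)⁻¹ := hρ₂.inv fun x => (hp₂ x).ne'
  have hu₁ := contDiff_smulv hr₁ hu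
  have hu₂ := contDiff_smulv hr₂ hu
  have hv₁ := contDiff_smulv hr₁ hv
  have hv₂ := contDiff_smulv hr₂ hv
  have hfr : ∀ x ∈ frontier Ω, x ∉ Ω := fun x hx h => by
    have h1 := hΩ.frontier_eq ▸ hx
    exact h1.2 h
  have hsm : ∀ {ρ σ : V n → ℝ}, ContDiff ℝ ∞ ρ → (∀ x, σ x = ρ x ^ 2) →
      SmM fun x => σ x • s x := by
    intro ρ σ h h' i j
    have h1 : (fun x => (σ x • s x) i j) = fun x => ρ x ^ 2 * s x i j := by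
      funext x
      rw [Matrix.smul_apply, smul_eq_mul, h']
    rw [h1]
    exact (h.pow 2).mul (hs i j)
  have hs₁ := hsm hρ₁ hσ₁
  have hs₂ := hsm hρ₂ hσ₂
  have hsy' : ∀ σ : V n → ℝ, ∀ x, (σ x • s x).IsSymm := fun σ x => (hsy x).smul _
  have e1 := hOr _ _ hu₁ hv₂ (fun x hx => by
      rw [lav_conj hs hsy hρ₁ hp₁ hσ₁ hA₁ hu, hLu x hx, sub_self, smul_zero])
    (fun x hx => by rw [lav_conj hs hsy hρ₂ hp₂ hσ₂ hA₂ hv, hLv x hx, sub_self, smul_zero])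
  have e2 : ea Ω (fun x => σ₁ x • s x) A₁ (fun y => (((ρ₁ y)⁻¹ : ℝ) : ℂ) • u y)
      (fun y => (((ρ₁ y)⁻¹ : ℝ) : ℂ) • v y) = ea Ω (fun x => σ₁ x • s x) A₁
        (fun y => (((ρ₁ y)⁻¹ : ℝ) : ℂ) • u y) (fun y => (((ρ₂ y)⁻¹ : ℝ) : ℂ) • v y) := by
    have h1 := (wk Ω hΩ hb _ hs₁ (hsy' σ₁) A₁ hA₁ _ _ hu₁ (hv₁.sub hv₂) (fun x hx => by
      rw [lav_conj hs hsy hρ₁ hp₁ hσ₁ hA₁ hu, hLu x hx, sub_self, smul_zero]) (fun x hx => by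
      show (((ρ₁ x)⁻¹ : ℝ) : ℂ) • v x - (((ρ₂ x)⁻¹ : ℝ) : ℂ) • v x = 0
      rw [hρ x (hfr x hx), sub_self])).1
    have h2 := ea_sub hb hs₁ hA₁ hu₁ hv₁ hv₂
    exact sub_eq_zero.1 (h2.symm.trans h1)
  have e3 : ea Ω (fun x => σ₂ x • s x) A₂ (fun y => (((ρ₁ y)⁻¹ : ℝ) : ℂ) • u y)
      (fun y => (((ρ₂ y)⁻¹ : ℝ) : ℂ) • v y) = ea Ω (fun x => σ₂ x • s x) A₂
        (fun y => (((ρ₂ y)⁻¹ : ℝ) : ℂ) • u y) (fun y => (((ρ₂ y)⁻¹ : ℝ) : ℂ) • v y) := by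
    have h1 := (wk Ω hΩ hb _ hs₂ (hsy' σ₂) A₂ hA₂ _ _ hv₂ (hu₁.sub hu₂) (fun x hx => by
      rw [lav_conj hs hsy hρ₂ hp₂ hσ₂ hA₂ hv, hLv x hx, sub_self, smul_zero]) (fun x hx => by
      show (((ρ₁ x)⁻¹ : ℝ) : ℂ) • u x - (((ρ₂ x)⁻¹ : ℝ) : ℂ) • u x = 0
      rw [hρ x (hfr x hx), sub_self])).1
    have h2 := ea_sub hb hs₂ hA₂ hv₂ hu₁ hu₂
    have h3 := sub_eq_zero.1 (h2.symm.trans h1)
    rw [ea_star Ω (hsy' σ₂) A₂ _ (fun y => (((ρ₂ y)⁻¹ : ℝ) : ℂ) • v y), h3,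
      ← ea_star Ω (hsy' σ₂) A₂]
  have e4 := (e2.trans e1).trans e3
  have hd := cont_dot hu hv
  unfold ea at e4
  simp only [int_conj hs hsy hρ₁ hp₁ hσ₁ hA₁ hu hv, int_conj hs hsy hρ₂ hp₂ hσ₂ hA₂ hu hv] at e4
  have hfo : ∀ {A : Cn n N}, SmU A → Continuous (fo s A u v) := fun hA => qf_contS hs hA hu hv
  have hX : ∀ {A : Cn n N} {ρ : V n → ℝ}, SmU A → ContDiff ℝ ∞ ρ → (∀ x, 0 < ρ x) →
      IntegrableOn (fun x => fo s A u v x + (pot s ρ x : ℂ) * (u x ⬝ᵥ star (v x))) Ω :=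
    fun hA h h' => intOn hb ((hfo hA).add ((Complex.continuous_ofReal.comp
      (sm_pot hs h h').continuous).mul hd.continuous))
  have hD : ∀ {ρ : V n → ℝ}, ContDiff ℝ ∞ ρ → (∀ x, 0 < ρ x) →
      IntegrableOn (fun x => ∑ i, pd i (fun y => (mr s ρ i y : ℂ) * (u y ⬝ᵥ star (v y))) x) Ω :=
    fun h h' => intOn hb (continuous_finsetSum _ fun i _ =>
      (LR.H158.contDiff_pd ((Complex.ofRealCLM.contDiff.comp (sm_mr hs h h' i)).mul hd)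
        i).continuous)
  have e5 : ∫ x in Ω, (fo s A₁ u v x + (pot s ρ₁ x : ℂ) * (u x ⬝ᵥ star (v x))) =
      ∫ x in Ω, (fo s A₂ u v x + (pot s ρ₂ x : ℂ) * (u x ⬝ᵥ star (v x))) := by
    have h1 := integral_sub (hX hA₁ hρ₁ hp₁) (hD hρ₁ hp₁)
    have h2 := integral_sub (hX hA₂ hρ₂ hp₂) (hD hρ₂ hp₂)
    have h3 := int_div hb hi hs hρ₁ hρ₂ hp₁ hp₂ hρ hd
    have h4 : ∫ x in Ω, ((fo s A₁ u v x + (pot s ρ₁ x : ℂ) * (u x ⬝ᵥ star (v x))) -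
        ∑ i, pd i (fun y => (mr s ρ₁ i y : ℂ) * (u y ⬝ᵥ star (v y))) x) =
        ∫ x in Ω, ((fo s A₂ u v x + (pot s ρ₂ x : ℂ) * (u x ⬝ᵥ star (v x))) -
        ∑ i, pd i (fun y => (mr s ρ₂ i y : ℂ) * (u y ⬝ᵥ star (v y))) x) := e4
    rw [h1, h2, h3] at h4
    exact sub_left_injective h4
  have e6 := integral_sub (hX hA₁ hρ₁ hp₁) (hX hA₂ hρ₂ hp₂)
  rw [e5, sub_self] at e6
  rw [← e6]
  refine integral_congr_ae (Filter.Eventually.of_forall fun x => ?_)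
  simp only
  ring

end two

end Vale.Agent.P088.HY.T9
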