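import Vale.Agent.P088.R2.H349.J.Spec
import Vale.Agent.P088.R2.H948.T.IdC

/-!
# Complex vectors and matrices as real ones
-/

open MeasureTheory Set
open scoped ContDiff Matrix

noncomputable section

namespace Vale.Agent.P088.HY.T9

open Vale.Agent.P088.LR Vale.Agent.P088.LR.H158 Vale.Agent.P088.LR.U

variable {n N : ℕ}

/-- The first half. -/
def fl (b : Fin N) : Fin (N + N) := Fin.castAdd N b

/-- The second half. -/
def fr (b : Fin N) : Fin (N + N) := Fin.natAdd N b

theorem cas {P : Fin (N + N) → Prop} (h1 : ∀ a, P (fl a)) (h2 : ∀ a, P (fr a)) (p : Fin (N + N)) :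
    P p := Fin.addCases h1 h2 p

theorem sumL {E : Type*} [AddCommMonoid E] (f : Fin (N + N) → E) :
    ∑ p, f p = ∑ b, f (fl b) + ∑ b, f (fr b) := Fin.sum_univ_add f

theorem fl_inj (a b : Fin N) : fl a = fl b ↔ a = b := by simp [fl, Fin.ext_iff]

theorem fr_inj (a b : Fin N) : fr a = fr b ↔ a = b := by simp [fr, Fin.ext_iff]

theorem fl_ne (a b : Fin N) : fl a ≠ fr b := by
  intro h
  have := congrArg Fin.val h
  simp only [fl, fr, Fin.val_castAdd, Fin.val_natAdd] at this
  omega

/-- The real form of a complex matrix. -/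
def rM (M : Matrix (Fin N) (Fin N) ℂ) : Matrix (Fin (N + N)) (Fin (N + N)) ℝ :=
  Matrix.of fun p q => Fin.addCases (motive := fun _ => ℝ)
    (fun a => Fin.addCases (motive := fun _ => ℝ) (fun b => (M a b).re) (fun b => -(M a b).im) q)
    (fun a => Fin.addCases (motive := fun _ => ℝ) (fun b => (M a b).im) (fun b => (M a b).re) q) p

@[simp] theorem rM_ll (M : Matrix (Fin N) (Fin N) ℂ) (a b : Fin N) :
    rM M (fl a) (fl b) = (M a b).re := by
  unfold rM fl
  rw [Matrix.of_apply, Fin.addCases_left, Fin.addCases_left]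
@[simp] theorem rM_lr (M : Matrix (Fin N) (Fin N) ℂ) (a b : Fin N) :
    rM M (fl a) (fr b) = -(M a b).im := by
  unfold rM fl fr
  rw [Matrix.of_apply, Fin.addCases_left, Fin.addCases_right]
@[simp] theorem rM_rl (M : Matrix (Fin N) (Fin N) ℂ) (a b : Fin N) :
    rM M (fr a) (fl b) = (M a b).im := by
  unfold rM fl fr
  rw [Matrix.of_apply, Fin.addCases_right, Fin.addCases_left]
@[simp] theorem rM_rr (M : Matrix (Fin N) (Fin N) ℂ) (a b : Fin N) :
    rM M (fr a) (fr b) = (M a b).re := by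
  unfold rM fr
  rw [Matrix.of_apply, Fin.addCases_right, Fin.addCases_right]

/-- Equality of matrices is checked on blocks. -/
theorem ext4 {G H : Matrix (Fin (N + N)) (Fin (N + N)) ℝ}
    (h1 : ∀ a b, G (fl a) (fl b) = H (fl a) (fl b)) (h2 : ∀ a b, G (fl a) (fr b) = H (fl a) (fr b))
    (h3 : ∀ a b, G (fr a) (fl b) = H (fr a) (fl b)) (h4 : ∀ a b, G (fr a) (fr b) = H (fr a) (fr b)) :
    G = H := by
  ext p q
  exact cas (P := fun p => G p q = H p q) (fun a => cas (P := fun q => G (fl a) q = H (fl a) q)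
    (h1 a) (h2 a) q) (fun a => cas (P := fun q => G (fr a) q = H (fr a) q) (h3 a) (h4 a) q) p

theorem rM_mul (M M' : Matrix (Fin N) (Fin N) ℂ) : rM (M * M') = rM M * rM M' := by
  refine ext4 (fun a b => ?_) (fun a b => ?_) (fun a b => ?_) fun a b => ?_ <;>
  simp only [rM_ll, rM_lr, rM_rl, rM_rr, Matrix.mul_apply, sumL, Complex.re_sum,
    Complex.im_sum, Complex.mul_re, Complex.mul_im, ← Finset.sum_add_distrib,
    ← Finset.sum_neg_distrib]
  all_goals exact Finset.sum_congr rfl fun c _ => by ring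

theorem rM_add (M M' : Matrix (Fin N) (Fin N) ℂ) : rM (M + M') = rM M + rM M' := by
  refine ext4 (fun a b => ?_) (fun a b => ?_) (fun a b => ?_) fun a b => ?_ <;>
  simp only [rM_ll, rM_lr, rM_rl, rM_rr, Matrix.add_apply, Complex.add_re, Complex.add_im]
  ring

theorem rM_neg (M : Matrix (Fin N) (Fin N) ℂ) : rM (-M) = -rM M := by
  refine ext4 (fun a b => ?_) (fun a b => ?_) (fun a b => ?_) fun a b => ?_ <;>
  simp only [rM_ll, rM_lr, rM_rl, rM_rr, Matrix.neg_apply, Complex.neg_re, Complex.neg_im]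

theorem rM_sub (M M' : Matrix (Fin N) (Fin N) ℂ) : rM (M - M') = rM M - rM M' := by
  rw [sub_eq_add_neg, rM_add, rM_neg, sub_eq_add_neg]

theorem rM_ct (M : Matrix (Fin N) (Fin N) ℂ) : rM Mᴴ = (rM M)ᵀ := by
  refine ext4 (fun a b => ?_) (fun a b => ?_) (fun a b => ?_) fun a b => ?_ <;>
  simp [Matrix.conjTranspose_apply, Matrix.transpose_apply]

theorem rM_one : rM (1 : Matrix (Fin N) (Fin N) ℂ) = 1 := by
  refine ext4 (fun a b => ?_) (fun a b => ?_) (fun a b => ?_) fun a b => ?_
  · rw [rM_ll, Matrix.one_apply, Matrix.one_apply]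
    simp only [fl_inj]
    split_ifs <;> simp
  · rw [rM_lr, Matrix.one_apply, Matrix.one_apply, if_neg (fl_ne a b)]
    split_ifs <;> simp
  · rw [rM_rl, Matrix.one_apply, Matrix.one_apply, if_neg (fl_ne b a).symm]
    split_ifs <;> simp
  · rw [rM_rr, Matrix.one_apply, Matrix.one_apply]
    simp only [fr_inj]
    split_ifs <;> simp

theorem rM_inj {M M' : Matrix (Fin N) (Fin N) ℂ} (h : rM M = rM M') : M = M' := by
  ext a b
  refine Complex.ext ?_ ?_
  · have := congrFun (congrFun h (fl a)) (fl b)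
    simpa using this
  · have := congrFun (congrFun h (fr a)) (fl b)
    simpa using this

/-- The complex matrix of a real one. -/
def cM (G : Matrix (Fin (N + N)) (Fin (N + N)) ℝ) : Matrix (Fin N) (Fin N) ℂ :=
  Matrix.of fun a b => ⟨G (fl a) (fl b), G (fr a) (fl b)⟩

/-- Real matrices which commute with `J` are complex. -/
theorem rM_cM {G : Matrix (Fin (N + N)) (Fin (N + N)) ℝ}
    (h : G * rM (Complex.I • 1) = rM (Complex.I • 1) * G) : rM (cM G) = G := by
  have e : ∀ p q, (G * rM (Complex.I • (1 : Matrix (Fin N) (Fin N) ℂ))) p q =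
      (rM (Complex.I • (1 : Matrix (Fin N) (Fin N) ℂ)) * G) p q := fun p q => by rw [h]
  have e1 : ∀ a b : Fin N, G (fl a) (fr b) = -G (fr a) (fl b) := by
    intro a b
    have h1 := e (fl a) (fl b)
    simpa [Matrix.mul_apply, sumL, Matrix.one_apply, Finset.sum_ite_eq',
      apply_ite Complex.re, apply_ite Complex.im] using h1
  have e2 : ∀ a b : Fin N, G (fl a) (fl b) = G (fr a) (fr b) := by
    intro a b
    have h1 := e (fl a) (fr b)
    simpa [Matrix.mul_apply, sumL, Matrix.one_apply, Finset.sum_ite_eq',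
      apply_ite Complex.re, apply_ite Complex.im] using h1
  refine ext4 (fun a b => ?_) (fun a b => ?_) (fun a b => ?_) fun a b => ?_
  · simp [cM]
  · simp [cM, e1]
  · simp [cM]
  · simp [cM, e2]

/-- The complex vector of a real one. -/
def cV (u : Fin (N + N) → V n → ℝ) (x : V n) (b : Fin N) : ℂ := ⟨u (fl b) x, u (fr b) x⟩

theorem mk_eq (a b : ℝ) : (⟨a, b⟩ : ℂ) = (a : ℂ) + (b : ℂ) * Complex.I := by
  apply Complex.ext <;> simp

theorem contDiff_mk {f g : V n → ℝ} (hf : ContDiff ℝ ∞ f) (hg : ContDiff ℝ ∞ g) :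
    ContDiff ℝ ∞ fun x => (⟨f x, g x⟩ : ℂ) := by
  simp only [mk_eq]
  exact (Complex.ofRealCLM.contDiff.comp hf).add
    ((Complex.ofRealCLM.contDiff.comp hg).mul contDiff_const)

theorem pd_mk {f g : V n → ℝ} {x : V n} (hf : DifferentiableAt ℝ f x)
    (hg : DifferentiableAt ℝ g x) (i : Fin n) :
    pd i (fun y => (⟨f y, g y⟩ : ℂ)) x = ⟨pd i f x, pd i g x⟩ := by
  simp only [mk_eq]
  have h1 : DifferentiableAt ℝ (fun y => (f y : ℂ)) x := Complex.ofRealCLM.differentiableAt.comp x hf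
  have h2 : DifferentiableAt ℝ (fun y => (g y : ℂ)) x := Complex.ofRealCLM.differentiableAt.comp x hg
  have h3 : DifferentiableAt ℝ (fun y => (g y : ℂ) * Complex.I) x :=
    h2.mul (differentiableAt_const _)
  have h4 : pd i (fun y => (g y : ℂ) * Complex.I) x = pd i (fun y => (g y : ℂ)) x * Complex.I +
      (g x : ℂ) * pd i (fun _ => Complex.I) x := pd_mul h2 (differentiableAt_const _) i
  rw [pd_add h1 h3, h4, pd_const, pd_ofReal hf, pd_ofReal hg]
  ring

theorem contDiff_cV {u : Fin (N + N) → V n → ℝ} (hu : ∀ p, ContDiff ℝ ∞ (u p)) :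
    ContDiff ℝ ∞ (cV u) := by
  rw [contDiff_pi]
  exact fun b => contDiff_mk (hu _) (hu _)

/-- The real form of a connection. -/
def rC (A : Cn n N) : Cn' n (N + N) := fun i x => rM (A i x)

theorem contDiff_rM {F : V n → Matrix (Fin N) (Fin N) ℂ} (hF : SmC F) (p q : Fin (N + N)) :
    ContDiff ℝ ∞ fun x => rM (F x) p q := by
  have hre : ∀ a b, ContDiff ℝ ∞ fun x => (F x a b).re := fun a b =>
    Complex.reCLM.contDiff.comp (hF a b)
  have him : ∀ a b, ContDiff ℝ ∞ fun x => (F x a b).im := fun a b =>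
    Complex.imCLM.contDiff.comp (hF a b)
  refine cas (P := fun p => ContDiff ℝ ∞ fun x => rM (F x) p q) (fun a => ?_) (fun a => ?_) p
  · refine cas (P := fun q => ContDiff ℝ ∞ fun x => rM (F x) (fl a) q) (fun b => ?_)
      (fun b => ?_) q
    · simpa only [rM_ll] using hre a b
    · simpa only [rM_lr] using (him a b).neg
  · refine cas (P := fun q => ContDiff ℝ ∞ fun x => rM (F x) (fr a) q) (fun b => ?_)
      (fun b => ?_) q
    · simpa only [rM_rl] using him a b
    · simpa only [rM_rr] using hre a b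

theorem sm_Dc {A : Cn n N} (hA : SmU A) {u : Fin (N + N) → V n → ℝ}
    (hu : ∀ p, ContDiff ℝ ∞ (u p)) (i : Fin n) (p : Fin (N + N)) :
    ContDiff ℝ ∞ (Dc (rC A) i u p) :=
  (LR.H158.contDiff_pd (hu p) i).add (ContDiff.sum fun q _ =>
    (contDiff_rM (hA.1 i) p q).mul (hu q))

theorem cd_cV {A : Cn n N} {u : Fin (N + N) → V n → ℝ} (hu : ∀ p, ContDiff ℝ ∞ (u p))
    (i : Fin n) (x : V n) : cd A i (cV u) x = cV (Dc (rC A) i u) x := by
  funext b
  unfold cd
  rw [Pi.add_apply, pd_pi (dfa (contDiff_cV hu) x)]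
  show pd i (fun y => (⟨u (fl b) y, u (fr b) y⟩ : ℂ)) x + _ = _
  rw [pd_mk (dfa (hu _) x) (dfa (hu _) x)]
  unfold cV Dc rC
  apply Complex.ext
  · simp only [Complex.add_re, Matrix.mulVec, dotProduct, Complex.re_sum, Complex.mul_re,
      sumL, rM_ll, rM_lr, ← Finset.sum_add_distrib]
    congr 1
    exact Finset.sum_congr rfl fun c _ => by ring
  · simp only [Complex.add_im, Matrix.mulVec, dotProduct, Complex.im_sum, Complex.mul_im,
      sumL, rM_rl, rM_rr, ← Finset.sum_add_distrib]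
    congr 1
    exact Finset.sum_congr rfl fun c _ => by ring

theorem sum_cV {c : Fin n → V n → ℝ} {w : Fin n → Fin (N + N) → V n → ℝ} (x : V n) :
    ∑ j, (c j x : ℂ) • cV (w j) x = cV (fun q y => ∑ j, c j y * w j q y) x := by
  funext b
  rw [Finset.sum_apply]
  unfold cV
  apply Complex.ext <;> simp

/-- The real form of the equation. -/
theorem LA_eq {s : MF n} (hs : SmM s) {A : Cn n N} (hA : SmU A) {u : Fin (N + N) → V n → ℝ}
    (hu : ∀ p, ContDiff ℝ ∞ (u p)) (q : V n → ℝ) (x : V n) :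
    cV (LA s (rC A) (fun x => q x • 1) u) x = lav s A (cV u) x - (q x : ℂ) • cV u x := by
  have h1 : ∀ i, (fun y => ∑ j, (s y i j : ℂ) • cd A j (cV u) y) =
      cV (fun q y => ∑ j, s y i j * Dc (rC A) j u q y) := by
    intro i
    funext y
    simp only [cd_cV hu]
    exact sum_cV (c := fun j y => s y i j) y
  have h2 : ∀ i q, ContDiff ℝ ∞ fun y => ∑ j, s y i j * Dc (rC A) j u q y := fun i q =>
    ContDiff.sum fun j _ => (hs i j).mul (sm_Dc hA hu j q)
  unfold lav
  simp only [h1, cd_cV (h2 _)]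
  funext b
  rw [Pi.sub_apply, Finset.sum_apply]
  unfold cV LA
  apply Complex.ext
  · simp [Matrix.smul_apply, Matrix.one_apply, Complex.re_sum]
  · simp [Matrix.smul_apply, Matrix.one_apply, Complex.im_sum]

theorem re_dot (u v : Fin (N + N) → V n → ℝ) (x : V n) :
    (cV u x ⬝ᵥ star (cV v x)).re = ∑ p, u p x * v p x := by
  simp only [dotProduct, cV, Pi.star_apply, Complex.re_sum, Complex.star_def, Complex.mul_re,
    Complex.conj_re, Complex.conj_im, sumL, ← Finset.sum_add_distrib]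
  exact Finset.sum_congr rfl fun b _ => by ring

end Vale.Agent.P088.HY.T9
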